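import Vale.Agent.P290.R2.H596.Spec
import Vale.Agent.P290.H805.TubeEx

/-! Moving the values of a holomorphic map into a fibre at the point where a linear form is one. -/

open Set Filter Metric
open scoped Topology

namespace Vale.Agent.P290.R2.H523

open Vale.Agent.P290 Vale.Agent.P290.K Vale.Agent.P290.H580 Vale.Agent.P290.H805
open Vale.Agent.P290.R2.H596

section
variable {T E : Type} [TopologicalSpace T] [TopologicalSpace E] {F : Family T E}
variable {V : Type} [NormedAddCommGroup V] [NormedSpace ℂ V] {t₀ : T}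

/-- the pairs `(z, x)` for which all the convex combinations (with complex parameter) of the
coordinate of `x` and of `h z` are coordinates -/
def PP (F : Family T E) (t₀ : T) (y : E) (h : V → C2) : Set (V × E) :=
  {q | q.2 ∈ (F.triv y).source ∧ ∀ s : ℂ, ‖s‖ ≤ 1 →
    (t₀, (1 - s) • (F.triv y q.2).2 + s • h q.1) ∈ (F.triv y).target}

omit [NormedSpace ℂ V] in
theorem isOpen_PP {y : E} {h : V → C2} (hh : Continuous h) : IsOpen (PP F t₀ y h) := by
  rw [isOpen_iff_mem_nhds]
  rintro q ⟨hq1, hq2⟩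
  have h1 : ∀ᶠ q' : V × E in 𝓝 q, q'.2 ∈ (F.triv y).source :=
    continuous_snd.continuousAt.eventually ((F.triv y).open_source.mem_nhds hq1)
  have h2 : ∀ᶠ q' : V × E in 𝓝 q, ∀ s ∈ closedBall (0 : ℂ) 1,
      (t₀, (1 - s) • (F.triv y q'.2).2 + s • h q'.1) ∈ (F.triv y).target := by
    refine (isCompact_closedBall (0 : ℂ) 1).eventually_forall_of_forall_eventually fun s hs => ?_
    have c1 : ContinuousAt (fun p : (V × E) × ℂ => F.triv y p.1.2) (q, s) :=
      ContinuousAt.comp (g := F.triv y) (f := fun p : (V × E) × ℂ => p.1.2)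
        ((F.triv y).continuousAt hq1) (by fun_prop)
    have c2 : ContinuousAt (fun p : (V × E) × ℂ => (F.triv y p.1.2).2) (q, s) := c1.snd
    have c3 : ContinuousAt (fun p : (V × E) × ℂ => h p.1.1) (q, s) := by fun_prop
    have c4 : ContinuousAt (fun p : (V × E) × ℂ =>
        ((t₀, (1 - p.2) • (F.triv y p.1.2).2 + p.2 • h p.1.1) : T × C2)) (q, s) := by
      have c5 : ContinuousAt (fun p : (V × E) × ℂ => (1 - p.2) • (F.triv y p.1.2).2) (q, s) :=
        ContinuousAt.smul (f := fun p : (V × E) × ℂ => 1 - p.2) (by fun_prop) c2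
      have c6 : ContinuousAt (fun p : (V × E) × ℂ => p.2 • h p.1.1) (q, s) :=
        ContinuousAt.smul (f := fun p : (V × E) × ℂ => p.2) (by fun_prop) c3
      exact continuousAt_const.prodMk (c5.add c6)
    exact c4.eventually ((F.triv y).open_target.mem_nhds (hq2 s (by simpa using hs)))
  filter_upwards [h1, h2] with q' h3 h4
  exact ⟨h3, fun s hs => h4 s (by simpa using hs)⟩

/-- the point with the coordinate between those of `x` and `h z` -/
noncomputable def Psi (F : Family T E) (t₀ : T) (y : E) (h : V → C2) (q : V × E) (s : ℂ) : E :=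
  (F.triv y).symm (t₀, (1 - s) • (F.triv y q.2).2 + s • h q.1)

omit [NormedAddCommGroup V] [NormedSpace ℂ V] in
theorem Psi_zero {y : E} {h : V → C2} {q : V × E} (hq : q.2 ∈ (F.triv y).source)
    (hp : F.p q.2 = t₀) : Psi F t₀ y h q 0 = q.2 := by
  simp only [Psi, sub_zero, one_smul, zero_smul, add_zero]
  rw [← hp, ← F.mk_eq y hq, (F.triv y).left_inv hq]

omit [NormedAddCommGroup V] [NormedSpace ℂ V] in
theorem Psi_one {y : E} {h : V → C2} {q : V × E} :
    Psi F t₀ y h q 1 = (F.triv y).symm (t₀, h q.1) := by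
  simp only [Psi, sub_self, one_smul, zero_smul, zero_add]

omit [NormedSpace ℂ V] in
/-- the part of a thickening of `K` where the linear form is close to one lies in a given
neighbourhood of the face -/
theorem exists_margin {K W : Set V} {L : V → ℝ} [ProperSpace V] (hK : IsCompact K)
    (hL : Continuous L) (hK1 : ∀ z ∈ K, L z ≤ 1) (hW : IsOpen W) (hKW : ∀ z ∈ K, L z = 1 → z ∈ W)
    (s : ℝ) (hne : K.Nonempty) :
    ∃ m > (0 : ℝ), ∀ z ∈ cthickening s K, infDist z K < m → 1 - L z < m → z ∈ W := by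
  have hc : IsCompact (cthickening s K \ W) := hK.cthickening.diff hW
  have hf : Continuous (fun z => max (infDist z K) (1 - L z)) :=
    (continuous_infDist_pt K).max (continuous_const.sub hL)
  obtain ⟨m, hm, h⟩ := hc.exists_forall_le' (f := fun z => max (infDist z K) (1 - L z)) (a := 0)
    hf.continuousOn (fun z hz => by
      by_contra hcon
      rw [not_lt, max_le_iff] at hcon
      have h1 : infDist z K = 0 := le_antisymm hcon.1 infDist_nonneg
      have h2 : z ∈ K := (hK.isClosed.mem_iff_infDist_zero hne).2 h1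
      have h3 : L z = 1 := le_antisymm (hK1 z h2) (by linarith [hcon.2])
      exact hz.2 (hKW z h2 h3))
  refine ⟨m, hm, fun z hz h1 h2 => ?_⟩
  by_contra hzW
  have := h z ⟨hz, hzW⟩
  rw [le_max_iff] at this
  rcases this with h3 | h3 <;> linarith

end

theorem move (hMg : StMerge) (hT : StTube) (hN : StNear) (hC : StClOpen) : StMove := by
  intro T E _ _ F V _ _ _ t₀ K gK g hg ℓ hℓ y h hh hsrc htgt η hη 𝒪 h𝒪
  rcases K.eq_empty_or_nonempty with rfl | hne
  · exact ⟨g, hg, fun z hz => absurd hz (notMem_empty z), fun z hz => absurd hz (notMem_empty z)⟩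
  have : ProperSpace V := FiniteDimensional.proper ℂ V
  obtain ⟨D, hDu, hKN⟩ := exists_tube gK hg
  set L : V →L[ℝ] ℝ := Complex.reCLM.comp (ℓ.restrictScalars ℝ) with hLd
  have hLe : ∀ z, L z = (ℓ z).re := fun z => rfl
  have hLc : Continuous L := L.continuous
  have hPo : IsOpen (PP F t₀ y h) := isOpen_PP hh.continuous
  -- a thickening of `K` in the domain of the tube
  obtain ⟨s, hs, hsN⟩ := gK.1.exists_cthickening_subset_open (isOpen_iUnion fun j => isOpen_interior)
    hKN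
  have hgFH : ∀ z ∈ cthickening s K, FH F t₀ g z := by
    intro z hz
    obtain ⟨j, hj⟩ := mem_iUnion.1 (hsN hz)
    rw [← hDu]
    exact D.hol j z (D.sub j (interior_subset hj))
  -- the neighbourhood of the face
  set W : Set V := interior {z | (z, g z) ∈ PP F t₀ y h} with hW
  have hKW : ∀ z ∈ K, L z = 1 → z ∈ W := by
    intro z hz hz1
    rw [hW, mem_interior_iff_mem_nhds]
    have hgc : ContinuousAt g z := (hg.self_of_nhdsSet z hz).2.1
    have h1 : ContinuousAt (fun z => (z, g z)) z := continuousAt_id.prodMk hgc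
    exact h1.eventually (hPo.mem_nhds ⟨hsrc z hz hz1, htgt z hz hz1⟩)
  obtain ⟨m, hm, hmW⟩ := exists_margin gK.1 hLc hℓ isOpen_interior hKW s hne
  set b := m / 4 with hb
  set a := min (m / 8) η with ha
  have ha0 : 0 < a := by positivity
  have ha1 : a ≤ m / 8 := min_le_left _ _
  have ha2 : a ≤ η := min_le_right _ _
  set s' := min s (m / 2) with hs'
  have hs'0 : 0 < s' := by positivity
  have hs's : s' ≤ s := min_le_left _ _
  have hs'm : s' < m := (min_le_right _ _).trans_lt (by linarith)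
  have gK' : Good (cthickening s' K) := ⟨gK.1.cthickening, gK.2.cthickening s'⟩
  have hK's : cthickening s' K ⊆ cthickening s K := cthickening_mono hs's K
  have hKK' : K ⊆ cthickening s' K := self_subset_cthickening K
  -- the compact set over which the values are in the domain of the chart
  set K₂ : Set V := cthickening s' K ∩ {z | 1 - m / 2 ≤ L z} with hK₂
  have cK₂ : IsCompact K₂ := gK'.1.inter_right (isClosed_le continuous_const hLc)
  have hK₂P : ∀ z ∈ K₂, (z, g z) ∈ PP F t₀ y h := by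
    intro z hz
    have h1 : z ∈ W := by
      refine hmW z (hK's hz.1) ?_ ?_
      · refine lt_of_le_of_lt ?_ hs'm
        have h2 := hz.1
        rw [mem_cthickening_iff] at h2
        exact ENNReal.toReal_le_of_le_ofReal hs'0.le h2
      · have := hz.2
        simp only [mem_ofPred_eq] at this
        linarith
    exact interior_subset (s := {z | (z, g z) ∈ PP F t₀ y h}) h1
  -- the sets of the gluing
  set A₀ : Set V := K ∩ {z | L z ≤ 1 - a} with hA₀
  set B₀ : Set V := K ∩ {z | 1 - b ≤ L z} with hB₀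
  have gA₀ : Good A₀ := gK.inter_le L (1 - a)
  have gB₀ : Good B₀ := gK.inter_ge L (1 - b)
  have gS : ∀ S : Set V, Good S → Good (S ×ˢ {(0 : C2)}) := fun S hS =>
    ⟨hS.1.prod isCompact_singleton, hS.2.prod (convex_singleton _)⟩
  set A : Set (V × C2) := A₀ ×ˢ {(0 : C2)} with hA
  set B : Set (V × C2) := B₀ ×ˢ {(0 : C2)} with hB
  have hAB : A ∪ B = K ×ˢ {(0 : C2)} := by
    rw [hA, hB, ← union_prod]
    congr 1
    rw [hA₀, hB₀, ← inter_union_distrib_left]
    refine inter_eq_left.2 fun x _ => ?_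
    rcases le_total (L x) (1 - a) with h1 | h1
    · exact Or.inl h1
    · refine Or.inr ?_
      simp only [mem_ofPred_eq]
      linarith
  set O : Set (V × C2) := {q | q.1 ∈ thickening s' K ∧ ‖q.2‖ < 1 ∧ 1 - m / 2 < L q.1 ∧
    L q.1 < 1 - a / 2} with hO
  have hOo : IsOpen O := by
    have o1 : IsOpen {q : V × C2 | q.1 ∈ thickening s' K} :=
      isOpen_thickening.preimage continuous_fst
    have o2 : IsOpen {q : V × C2 | ‖q.2‖ < 1} := isOpen_lt (by fun_prop) continuous_const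
    have o3 : IsOpen {q : V × C2 | 1 - m / 2 < L q.1} :=
      isOpen_lt continuous_const (hLc.comp continuous_fst)
    have o4 : IsOpen {q : V × C2 | L q.1 < 1 - a / 2} :=
      isOpen_lt (hLc.comp continuous_fst) continuous_const
    exact o1.inter (o2.inter (o3.inter o4))
  have hABO : A ∩ B ⊆ O := by
    rintro q ⟨⟨⟨h1, h2⟩, h3⟩, ⟨⟨-, h4⟩, -⟩⟩
    rw [mem_singleton_iff] at h3
    simp only [mem_ofPred_eq] at h2 h4
    refine ⟨self_subset_thickening hs'0 K h1, ?_, ?_, ?_⟩
    · rw [h3, norm_zero]; exact one_pos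
    · linarith
    · linarith
  set K₃ : Set (V × C2) := cthickening s' K ×ˢ closedBall (0 : C2) 1 with hK₃
  have hOK₃ : O ⊆ K₃ := fun q hq =>
    ⟨thickening_subset_cthickening _ _ hq.1, by simpa using hq.2.1.le⟩
  obtain ⟨δ, hδ, hmerge⟩ := hMg T E F V t₀ D A B O (gS _ gA₀) (gS _ gB₀)
    (by rw [hAB]; exact (gS _ gK).2) hOo hABO (fun q hq => by
      obtain ⟨j, hj⟩ := mem_iUnion.1 (hsN (hK's (hOK₃ hq).1))
      exact ⟨j, interior_subset hj⟩) 1 one_pos 1 one_pos
  -- the tube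
  obtain ⟨r₀, hr₀, htube⟩ := hT T E F V t₀ D (cthickening s' K) gK' (hK's.trans hsN) (min δ 1)
    (by positivity)
  obtain ⟨r₁, hr₁, hnear₁⟩ := hN T E F V t₀ D K gK.1 hKN 𝒪 (by rw [hDu]; exact h𝒪)
  obtain ⟨r₂, hr₂, hnear₂⟩ := hN T E F V t₀ D K₂ cK₂ (inter_subset_left.trans (hK's.trans hsN))
    (PP F t₀ y h) (by rw [hDu]; exact fun z hz => hPo.mem_nhds (hK₂P z hz))
  set r := min r₀ (min r₁ r₂) / 2 with hr
  have hr0 : 0 < r := by positivity
  have hrr : r < min r₀ (min r₁ r₂) := by rw [hr]; exact half_lt_self (by positivity)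
  have e0 : r < r₀ := hrr.trans_le (min_le_left _ _)
  have e1 : r < r₁ := hrr.trans_le ((min_le_right _ _).trans (min_le_left _ _))
  have e2 : r < r₂ := hrr.trans_le ((min_le_right _ _).trans (min_le_right _ _))
  obtain ⟨u, hu1, hu2⟩ := htube r hr0 e0
  have hup : ∀ q ∈ K₃, F.p (u q) = t₀ := fun q hq =>
    (hu1.self_of_nhdsSet q hq).1.self_of_nhds
  have hcl : ∀ q ∈ K₃, D.Cl δ r q (u q) := fun q hq j hj =>
    ⟨(hu2 q hq j hj).1, (hu2 q hq j hj).2.trans_le (min_le_left _ _)⟩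
  have hcl1 : ∀ q ∈ K₃, D.Cl 1 r q (u q) := fun q hq j hj =>
    ⟨(hu2 q hq j hj).1, (hu2 q hq j hj).2.trans_le (min_le_right _ _)⟩
  have hin𝒪 : ∀ z ∈ K, ∀ w : C2, ‖w‖ ≤ 1 → (z, u (z, w)) ∈ 𝒪 := by
    intro z hz w hw
    have hq : (z, w) ∈ K₃ := ⟨hKK' hz, by simpa using hw⟩
    exact hnear₁ r hr0 e1 z hz w hw _ (hup _ hq) (hcl1 _ hq)
  have hinP : ∀ q ∈ K₃, q.1 ∈ K₂ → (q.1, u q) ∈ PP F t₀ y h := by
    rintro ⟨z, w⟩ hq hz
    exact hnear₂ r hr0 e2 z hz w (by simpa using hq.2) _ (hup _ hq) (hcl1 _ hq)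
  -- the coordinate of the modified tube
  set ψ : V × C2 → ℂ → C2 := fun q s => (1 - s) • (F.triv y (u q)).2 + s • h q.1 with hψ
  set Ψ : V × C2 → ℂ → E := fun q s => (F.triv y).symm (t₀, ψ q s) with hΨ
  have hΨ0 : ∀ q ∈ K₃, q.1 ∈ K₂ → Ψ q 0 = u q := by
    intro q hq hz
    exact Psi_zero (q := (q.1, u q)) (h := h) (hinP q hq hz).1 (hup q hq)
  have hψd : ∀ q, FH F t₀ u q → u q ∈ (F.triv y).source → ∀ χ : V → ℂ, Differentiable ℂ χ →
      DifferentiableAt ℂ (fun q => ψ q (χ q.1)) q := by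
    intro q hq hq' χ hχ
    have d1 : DifferentiableAt ℂ (fun q => (F.triv y (u q)).2) q := hq.diff hq'
    have d2 : DifferentiableAt ℂ (fun q : V × C2 => χ q.1) q :=
      (hχ.comp differentiable_fst).differentiableAt
    have d3 : DifferentiableAt ℂ (fun q : V × C2 => h q.1) q :=
      (hh.comp differentiable_fst).differentiableAt
    exact (((differentiableAt_const 1).sub d2).smul d1).add (d2.smul d3)
  -- closeness of the modified tube on the overlap
  set K₄ : Set (V × C2) := K₂ ×ˢ closedBall (0 : C2) 1 with hK₄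
  have cK₄ : IsCompact K₄ := cK₂.prod (isCompact_closedBall _ _)
  have hK₄3 : K₄ ⊆ K₃ := prod_mono inter_subset_left le_rfl
  obtain ⟨s₀, hs₀, hclose⟩ := Tube.exists_uniform cK₄ (0 : ℂ)
    {p : (V × C2) × ℂ | D.Cl δ r p.1 (Ψ p.1 p.2)} (by
      intro q hq
      have hq3 := hK₄3 hq
      have hP := hinP q hq3 hq.1
      have h1 := hC T E F V t₀ D δ r q (u q) (hcl q hq3)
      have h2 : Ψ q 0 = u q := hΨ0 q hq3 hq.1
      have hFu : FH F t₀ u q := hu1.self_of_nhdsSet q hq3
      have c1 : ContinuousAt (fun q => (F.triv y (u q)).2) q := (hFu.diff hP.1).continuousAt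
      have c2 : ContinuousAt (fun p : (V × C2) × ℂ => (F.triv y (u p.1)).2) (q, 0) :=
        ContinuousAt.comp (g := fun q => (F.triv y (u q)).2)
          (f := fun p : (V × C2) × ℂ => p.1) (x := (q, 0)) c1 continuous_fst.continuousAt
      have c3 : ContinuousAt (fun p : (V × C2) × ℂ => h p.1.1) (q, 0) :=
        (hh.continuous.comp (continuous_fst.comp continuous_fst)).continuousAt
      have c5 : ContinuousAt (fun p : (V × C2) × ℂ => (1 - p.2) • (F.triv y (u p.1)).2) (q, 0) :=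
        ContinuousAt.smul (f := fun p : (V × C2) × ℂ => 1 - p.2) (by fun_prop) c2
      have c6 : ContinuousAt (fun p : (V × C2) × ℂ => p.2 • h p.1.1) (q, 0) :=
        ContinuousAt.smul (f := fun p : (V × C2) × ℂ => p.2) (by fun_prop) c3
      have c7 : ContinuousAt (fun p : (V × C2) × ℂ => ((t₀, ψ p.1 p.2) : T × C2)) (q, 0) :=
        continuousAt_const.prodMk (c5.add c6)
      have c8 : ContinuousAt (F.triv y).symm (t₀, ψ q 0) :=
        (F.triv y).continuousAt_symm (hP.2 0 (by simp))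
      have c9 : ContinuousAt (fun p : (V × C2) × ℂ => Ψ p.1 p.2) (q, 0) :=
        ContinuousAt.comp (g := (F.triv y).symm)
          (f := fun p : (V × C2) × ℂ => ((t₀, ψ p.1 p.2) : T × C2)) (x := (q, 0)) c8 c7
      have c10 : ContinuousAt (fun p : (V × C2) × ℂ => (p.1, Ψ p.1 p.2)) (q, 0) :=
        continuous_fst.continuousAt.prodMk c9
      have h3 : {p : (V × C2) × E | D.Cl δ r p.1 p.2} ∈ 𝓝 (q, Ψ q 0) := by rw [h2]; exact h1
      exact c10.preimage_mem_nhds h3)
  -- the exponent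
  obtain ⟨N, hN0, hNs⟩ : ∃ N : ℝ, 0 ≤ N ∧ Real.exp (-(N * (a / 2))) ≤ s₀ := by
    refine ⟨|Real.log s₀| / (a / 2), by positivity, ?_⟩
    rw [div_mul_cancel₀ _ (by positivity)]
    calc Real.exp (-|Real.log s₀|) ≤ Real.exp (Real.log s₀) :=
          Real.exp_le_exp.2 (neg_abs_le _)
      _ = s₀ := Real.exp_log hs₀
  set χ : V → ℂ := fun z => Complex.exp ((N : ℂ) * (ℓ z - 1)) with hχ
  have hχd : Differentiable ℂ χ := by
    intro z
    exact (((ℓ.differentiableAt).sub_const 1).const_mul (N : ℂ)).cexp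
  have hχn : ∀ z, ‖χ z‖ = Real.exp (N * (L z - 1)) := by
    intro z
    rw [hχ]
    simp only [Complex.norm_exp]
    congr 1
    rw [Complex.re_ofReal_mul]
    simp [hLe]
  have hχ1 : ∀ z, L z ≤ 1 → ‖χ z‖ ≤ 1 := by
    intro z hz
    rw [hχn]
    refine Real.exp_le_one_iff.2 ?_
    nlinarith
  have hχs : ∀ z, L z < 1 - a / 2 → ‖χ z‖ ≤ s₀ := by
    intro z hz
    rw [hχn]
    refine le_trans (Real.exp_le_exp.2 ?_) hNs
    nlinarith
  set u' : V × C2 → E := fun q => Ψ q (χ q.1) with hu'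
  set A' : Set (V × C2) := A₀ ×ˢ closedBall (0 : C2) 1 ∪ O with hA'
  set B' : Set (V × C2) := B₀ ×ˢ closedBall (0 : C2) 1 ∪ O with hB'
  have hA'3 : A' ⊆ K₃ :=
    union_subset (prod_mono (inter_subset_left.trans hKK') le_rfl) hOK₃
  have hB'4 : ∀ q ∈ B', q ∈ K₃ ∧ q.1 ∈ K₂ ∧ L q.1 ≤ 1 := by
    rintro q (⟨⟨h1, h2⟩, h3⟩ | hq)
    · refine ⟨⟨hKK' h1, h3⟩, ⟨hKK' h1, ?_⟩, hℓ _ h1⟩
      simp only [mem_ofPred_eq] at h2 ⊢
      linarith
    · refine ⟨hOK₃ hq, ⟨(hOK₃ hq).1, hq.2.2.1.le⟩, ?_⟩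
      have := hq.2.2.2
      linarith
  have hOK₄ : O ⊆ K₄ := fun q hq => ⟨⟨(hOK₃ hq).1, hq.2.2.1.le⟩, (hOK₃ hq).2⟩
  obtain ⟨v, hv, hvA, hvB⟩ := hmerge r t₀ A' B' u u' hr0 subset_union_right subset_union_right
    (by
      rintro q ⟨h1, h2⟩ c hc
      rw [mem_singleton_iff] at h2
      refine Or.inl ⟨h1, ?_⟩
      rw [sh_snd, h2, zero_add, mem_closedBall_zero_iff]
      exact hc.le)
    (by
      rintro q ⟨h1, h2⟩ c hc
      rw [mem_singleton_iff] at h2
      refine Or.inl ⟨h1, ?_⟩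
      rw [sh_snd, h2, zero_add, mem_closedBall_zero_iff]
      exact hc.le)
    (hu1.filter_mono (nhdsSet_mono hA'3))
    (by
      rw [eventually_nhdsSet_iff_forall]
      intro q hq
      obtain ⟨h3, h2, hL1⟩ := hB'4 q hq
      have hP := hinP q h3 h2
      have hFu : FH F t₀ u q := hu1.self_of_nhdsSet q h3
      have f1 : ∀ᶠ q' in 𝓝 q, FH F t₀ u q' := eventually_nhdsSet_iff_forall.1 hu1 q h3
      have f2 := hFu.eventually_source hP.1
      have f3 : ContinuousAt (fun q => ((t₀, ψ q (χ q.1)) : T × C2)) q :=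
        continuousAt_const.prodMk (hψd q hFu hP.1 χ hχd).continuousAt
      have f4 : ∀ᶠ q' in 𝓝 q, (t₀, ψ q' (χ q'.1)) ∈ (F.triv y).target :=
        f3.eventually ((F.triv y).open_target.mem_nhds (hP.2 _ (hχ1 _ hL1)))
      filter_upwards [f1, f2, f4] with q' g1 g2 g3
      exact FH.mk_symm (v := fun q => ψ q (χ q.1)) (hψd q' g1 g2 χ hχd) g3)
    (fun q hq => hcl q (hOK₃ hq))
    (fun q hq => hclose q (hOK₄ hq) (χ q.1) (by
      rw [dist_zero_right]; exact hχs _ hq.2.2.2))
  rw [hAB] at hv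
  refine ⟨fun z => v (z, 0), ?_, ?_, ?_⟩
  · rw [eventually_nhdsSet_iff_forall]
    intro z hz
    have hc : Continuous fun z : V => ((z, 0) : V × C2) := by fun_prop
    have h3 : ∀ᶠ y in 𝓝 ((z, 0) : V × C2), FH F t₀ v y :=
      (eventually_nhdsSet_iff_forall.1 hv) _ ⟨hz, rfl⟩
    filter_upwards [hc.continuousAt.eventually h3] with x hx
    exact FH.comp (u := v) (q := fun z : V => ((z, 0) : V × C2)) hx (by fun_prop)
  · intro z hz hzη
    have hzA : ((z, 0) : V × C2) ∈ A := by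
      refine ⟨⟨hz, ?_⟩, rfl⟩
      simp only [mem_ofPred_eq, hLe]
      linarith
    obtain ⟨c, hc, hvc⟩ := hvA _ hzA
    simp only [hvc]
    have := hin𝒪 z hz (0 + c) (by rw [zero_add]; exact hc.le)
    exact this
  · intro z hz hz1
    have hzB : ((z, 0) : V × C2) ∈ B := by
      refine ⟨⟨hz, ?_⟩, rfl⟩
      simp only [mem_ofPred_eq, hLe, hz1, Complex.one_re]
      linarith
    obtain ⟨c, hc, hvc⟩ := hvB _ hzB
    have hχz : χ z = 1 := by
      simp only [hχ, hz1, sub_self, mul_zero, Complex.exp_zero]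
    simp only [hvc, hu', hΨ, hψ, sh_fst, hχz, sub_self, one_smul, zero_smul, zero_add]

end Vale.Agent.P290.R2.H523
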